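import Mathlib

/-!
# P207, all dimensions: interpolation and telescoping

`interp`: a function which is small in `C^0` and bounded in `C^k` for all `k` has small
derivatives, with an arbitrarily small loss in the exponent.
`tele`: a function which is approximated to the order `t ^ θ` by smooth functions whose derivatives
of all orders cost the same power `t ^ (-p)` is smooth, with uniform bounds.
-/

open Set Filter Topology Metric
open scoped ContDiff

noncomputable section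

namespace Vale.Agent.P207.H558.Tele

variable {E F : Type*} [NormedAddCommGroup E] [NormedSpace ℝ E] [NormedAddCommGroup F]
  [NormedSpace ℝ F]

/-- The inequality of Landau: the derivative is controlled by the function and the variation of
the derivative. -/
theorem landau {G : Type*} [NormedAddCommGroup G] [NormedSpace ℝ G] {g : E → G}
    {g' : E → E →L[ℝ] G} {x : E} {h ρ L : ℝ} (hh : 0 < h)
    (hg : ∀ y ∈ closedBall x h, HasFDerivAt g (g' y) y)
    (hL0 : 0 ≤ L) (hL : ∀ y ∈ closedBall x h, ‖g' y - g' x‖ ≤ L * ‖y - x‖)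
    (hρ : ∀ y ∈ closedBall x h, ‖g y‖ ≤ ρ) : ‖g' x‖ ≤ 2 * ρ / h + L * h := by
  have hx : x ∈ closedBall x h := mem_closedBall_self hh.le
  have hρ0 : 0 ≤ ρ := le_trans (norm_nonneg _) (hρ x hx)
  have hK : 0 ≤ 2 * ρ / h + L * h := by positivity
  refine ContinuousLinearMap.opNorm_le_bound _ hK fun v => ?_
  rcases eq_or_ne v 0 with rfl | hv
  · simp
  have hv' : 0 < ‖v‖ := norm_pos_iff.2 hv
  set w : E := (h / ‖v‖) • v with hw
  have hwn : ‖w‖ = h := by
    rw [hw, norm_smul, Real.norm_of_nonneg (by positivity)]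
    field_simp
  have hy : x + w ∈ closedBall x h := by
    rw [mem_closedBall, dist_eq_norm]
    simp [hwn]
  have key : ‖g (x + w) - g x - g' x (x + w - x)‖ ≤ (L * h) * ‖x + w - x‖ := by
    refine Convex.norm_image_sub_le_of_norm_hasFDerivWithin_le' (s := closedBall x h)
      (f' := g') (fun y hy => (hg y hy).hasFDerivWithinAt) (fun y hy => ?_)
      (convex_closedBall x h) hx hy
    refine (hL y hy).trans ?_
    have : ‖y - x‖ ≤ h := by rwa [mem_closedBall, dist_eq_norm] at hy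
    gcongr
  have e1 : x + w - x = w := by abel
  rw [e1, hwn] at key
  have h2 : ‖g' x w‖ ≤ 2 * ρ + L * h * h := by
    have h3 : g' x w = (g (x + w) - g x) - (g (x + w) - g x - g' x w) := by abel
    rw [h3]
    refine (norm_sub_le _ _).trans ?_
    have h4 : ‖g (x + w) - g x‖ ≤ 2 * ρ := by
      refine (norm_sub_le _ _).trans ?_
      have := hρ _ hy
      have := hρ _ hx
      linarith
    linarith
  have h5 : v = (‖v‖ / h) • w := by
    rw [hw, smul_smul]
    have : ‖v‖ / h * (h / ‖v‖) = 1 := by field_simp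
    rw [this, one_smul]
  have h6 : ‖g' x v‖ = (‖v‖ / h) * ‖g' x w‖ := by
    conv_lhs => rw [h5]
    rw [map_smul, norm_smul, Real.norm_of_nonneg (by positivity)]
  rw [h6]
  calc (‖v‖ / h) * ‖g' x w‖ ≤ (‖v‖ / h) * (2 * ρ + L * h * h) := by gcongr
    _ = (2 * ρ / h + L * h) * ‖v‖ := by field_simp

/-- derivative of the iterated derivative -/
theorem hasFDerivAt_iter {f : E → F} {U : Set E} (hU : IsOpen U) (hf : ContDiffOn ℝ ∞ f U)
    (i : ℕ) {x : E} (hx : x ∈ U) :
    HasFDerivAt (iteratedFDeriv ℝ i f) ((iteratedFDeriv ℝ (i + 1) f x).curryLeft) x := by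
  have h1 : ContDiffAt ℝ ∞ f x := hf.contDiffAt (hU.mem_nhds hx)
  have h2 : DifferentiableAt ℝ (iteratedFDeriv ℝ i f) x :=
    h1.differentiableAt_iteratedFDeriv (by exact_mod_cast WithTop.coe_lt_top i)
  have h3 := h2.hasFDerivAt
  have h4 : fderiv ℝ (iteratedFDeriv ℝ i f) x = (iteratedFDeriv ℝ (i + 1) f x).curryLeft := by
    rw [fderiv_iteratedFDeriv]
    rfl
  rwa [h4] at h3

theorem curryLeft_norm_sub {n : ℕ} (a b : ContinuousMultilinearMap ℝ (fun _ : Fin (n + 1) => E) F) :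
    ‖a.curryLeft - b.curryLeft‖ = ‖a - b‖ := by
  have : a.curryLeft - b.curryLeft = (a - b).curryLeft := by
    ext; simp
  rw [this, ContinuousMultilinearMap.curryLeft_norm]

/-- one step of interpolation between three consecutive orders -/
theorem step {f : E → F} {c : E} {r R : ℝ} (hr : r < R) (hf : ContDiffOn ℝ ∞ f (ball c R)) (i : ℕ)
    {ρ A B α β : ℝ} (hB : 0 ≤ B) (hρ : 0 < ρ) (hρ1 : ρ ≤ 1) (hαβ : β ≤ α)
    (h0 : ∀ y ∈ ball c R, ‖iteratedFDeriv ℝ i f y‖ ≤ A * ρ ^ α)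
    (h2 : ∀ y ∈ ball c R, ‖iteratedFDeriv ℝ (i + 2) f y‖ ≤ B * ρ ^ β) :
    ∀ y ∈ ball c r, ‖iteratedFDeriv ℝ (i + 1) f y‖ ≤
      (2 * A / ((R - r) / 2) + B * ((R - r) / 2)) * ρ ^ ((α + β) / 2) := by
  intro x hx
  set d : ℝ := (R - r) / 2 with hd
  have hd0 : 0 < d := by rw [hd]; linarith
  set h : ℝ := d * ρ ^ ((α - β) / 2) with hh
  have hpow : 0 < ρ ^ ((α - β) / 2) := Real.rpow_pos_of_pos hρ _
  have hh0 : 0 < h := by positivity
  have hhd : h ≤ d := by
    have : ρ ^ ((α - β) / 2) ≤ 1 := Real.rpow_le_one hρ.le hρ1 (by linarith)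
    calc h = d * ρ ^ ((α - β) / 2) := hh
      _ ≤ d * 1 := by gcongr
      _ = d := mul_one d
  have hsub : closedBall x h ⊆ ball c R := by
    intro y hy
    rw [mem_closedBall] at hy
    rw [mem_ball] at hx ⊢
    have := dist_triangle y x c
    have : d < R - r := by rw [hd]; linarith
    linarith
  have hsub' : closedBall x h ⊆ ball c R := hsub
  have key := landau (g := iteratedFDeriv ℝ i f)
    (g' := fun y => (iteratedFDeriv ℝ (i + 1) f y).curryLeft) (x := x) (h := h)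
    (ρ := A * ρ ^ α) (L := B * ρ ^ β) hh0
    (fun y hy => hasFDerivAt_iter isOpen_ball hf i (hsub hy))
    (by positivity)
    (fun y hy => by
      rw [curryLeft_norm_sub]
      refine Convex.norm_image_sub_le_of_norm_hasFDerivWithin_le (𝕜 := ℝ) (s := closedBall x h)
        (f := iteratedFDeriv ℝ (i + 1) f)
        (f' := fun y => (iteratedFDeriv ℝ (i + 2) f y).curryLeft)
        (fun z hz => (hasFDerivAt_iter isOpen_ball hf (i + 1) (hsub hz)).hasFDerivWithinAt)
        (fun z hz => ?_) (convex_closedBall x h) (mem_closedBall_self hh0.le) hy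
      rw [ContinuousMultilinearMap.curryLeft_norm]
      exact h2 z (hsub hz))
    (fun y hy => h0 y (hsub hy))
  simp only [ContinuousMultilinearMap.curryLeft_norm] at key
  refine key.trans (le_of_eq ?_)
  have e1 : ρ ^ α = ρ ^ ((α + β) / 2) * ρ ^ ((α - β) / 2) := by
    rw [← Real.rpow_add hρ]; congr 1; ring
  have e2 : ρ ^ β * ρ ^ ((α - β) / 2) = ρ ^ ((α + β) / 2) := by
    rw [← Real.rpow_add hρ]; congr 1; ring
  rw [hh, e1]
  have e3 : 2 * (A * (ρ ^ ((α + β) / 2) * ρ ^ ((α - β) / 2))) / (d * ρ ^ ((α - β) / 2))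
      = 2 * A / d * ρ ^ ((α + β) / 2) := by
    field_simp
  have e4 : B * ρ ^ β * (d * ρ ^ ((α - β) / 2)) = B * d * ρ ^ ((α + β) / 2) := by
    rw [← e2]; ring
  rw [e3, e4]
  ring

section Interp

variable (E F)

/-- the exponent `e` is admissible for the derivatives of order `i` -/
def Ok (M : ℕ → ℝ) (R : ℝ) (i : ℕ) (e : ℝ) : Prop :=
  ∀ r < R, ∃ C, 0 ≤ C ∧ ∀ (f : E → F) (c : E) (ρ : ℝ), ContDiffOn ℝ ∞ f (ball c R) →
    (∀ k, ∀ y ∈ ball c R, ‖iteratedFDeriv ℝ k f y‖ ≤ M k) → 0 < ρ → ρ ≤ 1 →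
    (∀ y ∈ ball c R, ‖f y‖ ≤ ρ) → ∀ y ∈ ball c r, ‖iteratedFDeriv ℝ i f y‖ ≤ C * ρ ^ e

variable {E F}

theorem Ok.zero (M : ℕ → ℝ) (R : ℝ) : Ok E F M R 0 1 := by
  intro r hr
  refine ⟨1, zero_le_one, fun f c ρ _ _ _ _ h y hy => ?_⟩
  rw [norm_iteratedFDeriv_zero, Real.rpow_one, one_mul]
  exact h y (ball_subset_ball hr.le hy)

theorem Ok.base (M : ℕ → ℝ) (R : ℝ) (i : ℕ) : Ok E F M R i 0 := by
  intro r hr
  refine ⟨|M i|, abs_nonneg _, fun f c ρ _ hM _ _ _ y hy => ?_⟩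
  rw [Real.rpow_zero, mul_one]
  exact (hM i y (ball_subset_ball hr.le hy)).trans (le_abs_self _)

theorem Ok.mono {M : ℕ → ℝ} {R : ℝ} {i : ℕ} {e e' : ℝ} (h : Ok E F M R i e) (he : e' ≤ e) :
    Ok E F M R i e' := by
  intro r hr
  obtain ⟨C, hC, H⟩ := h r hr
  refine ⟨C, hC, fun f c ρ hf hM h0 h1 hρ y hy => ?_⟩
  refine (H f c ρ hf hM h0 h1 hρ y hy).trans ?_
  have := Real.rpow_le_rpow_of_exponent_ge h0 h1 he
  gcongr

theorem Ok.step {M : ℕ → ℝ} {R : ℝ} {i : ℕ} {α β : ℝ} (h : Ok E F M R i α)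
    (h' : Ok E F M R (i + 2) β) (hαβ : β ≤ α) : Ok E F M R (i + 1) ((α + β) / 2) := by
  intro r hr
  obtain ⟨A, hA, HA⟩ := h ((r + R) / 2) (by linarith)
  obtain ⟨B, hB, HB⟩ := h' ((r + R) / 2) (by linarith)
  have hr' : r < (r + R) / 2 := by linarith
  have hR' : (r + R) / 2 ≤ R := by linarith
  refine ⟨2 * A / (((r + R) / 2 - r) / 2) + B * (((r + R) / 2 - r) / 2), ?_,
    fun f c ρ hf hM h0 h1 hρ y hy => ?_⟩
  · have : 0 < ((r + R) / 2 - r) / 2 := by linarith
    positivity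
  exact Tele.step hr' (hf.mono (ball_subset_ball hR')) i hB h0 h1 hαβ
    (fun z hz => HA f c ρ hf hM h0 h1 hρ z hz) (fun z hz => HB f c ρ hf hM h0 h1 hρ z hz) y hy

/-- every exponent `< 1` is admissible for every order -/
theorem Ok.all (M : ℕ → ℝ) (R : ℝ) (i : ℕ) {e : ℝ} (he : e < 1) : Ok E F M R i e := by
  classical
  set S : ℕ → Set ℝ := fun i => {e | e ≤ 1 ∧ Ok E F M R i e} with hS
  set s : ℕ → ℝ := fun i => sSup (S i) with hs
  have hbdd : ∀ i, BddAbove (S i) := fun i => ⟨1, fun e he => he.1⟩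
  have hne : ∀ i, (S i).Nonempty := fun i => ⟨0, zero_le_one, Ok.base M R i⟩
  have hs0 : ∀ i, 0 ≤ s i := fun i => le_csSup (hbdd i) ⟨zero_le_one, Ok.base M R i⟩
  have hs1 : ∀ i, s i ≤ 1 := fun i => csSup_le (hne i) fun e he => he.1
  have hlt : ∀ i e, e < s i → Ok E F M R i e := by
    intro i e he
    obtain ⟨e', he', hee⟩ := exists_lt_of_lt_csSup (hne i) he
    exact he'.2.mono hee.le
  have hup : ∀ i e, e ≤ 1 → Ok E F M R i e → e ≤ s i := fun i e h1 h2 =>
    le_csSup (hbdd i) ⟨h1, h2⟩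
  -- the two inequalities
  have ha : ∀ i, s (i + 2) ≤ s i → s i + s (i + 2) ≤ 2 * s (i + 1) := by
    intro i hi
    refine le_of_forall_pos_le_add fun δ hδ => ?_
    have h1 := (hlt i (s i - δ / 2) (by linarith)).step
      (hlt (i + 2) (s (i + 2) - δ / 2) (by linarith)) (by linarith)
    have h2 := hup (i + 1) _ (by have := hs1 i; have := hs1 (i + 2); linarith) h1
    linarith
  have hb : ∀ i, s i < s (i + 2) → s i ≤ s (i + 1) := by
    intro i hi
    refine le_of_forall_pos_le_add fun δ hδ => ?_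
    have h1 := (hlt i (s i - δ) (by linarith)).step
      (hlt (i + 2) (s i - δ) (by linarith)) le_rfl
    have h2 := hup (i + 1) _ (by have := hs1 i; linarith) h1
    linarith
  have hall : ∀ i, s i = 1 := by
    intro i
    induction i with
    | zero => exact le_antisymm (hs1 0) (hup 0 1 le_rfl (Ok.zero M R))
    | succ j ih =>
      by_contra hne1
      have hlt1 : s (j + 1) < 1 := lt_of_le_of_ne (hs1 _) hne1
      set δ : ℝ := 1 - s (j + 1) with hδ
      have hδ0 : 0 < δ := by rw [hδ]; linarith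
      have hP : ∀ n, s (j + n + 1) ≤ s (j + n) - δ := by
        intro n
        induction n with
        | zero =>
          simp only [add_zero]
          rw [ih, hδ]; linarith
        | succ n ihn =>
          have h1 : s (j + n + 2) ≤ s (j + n) := by
            by_contra h2
            have h3 := hb (j + n) (not_le.1 h2)
            linarith
          have h2 := ha (j + n) h1
          have e1 : j + (n + 1) + 1 = j + n + 2 := by ring
          have e2 : j + (n + 1) = j + n + 1 := by ring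
          rw [e1, e2]
          linarith
      have hQ : ∀ n : ℕ, s (j + n) ≤ 1 - n * δ := by
        intro n
        induction n with
        | zero => simp [ih]
        | succ n ihn =>
          have := hP n
          have e2 : j + (n + 1) = j + n + 1 := by ring
          rw [e2]
          push_cast
          linarith
      obtain ⟨n, hn⟩ := exists_nat_gt (1 / δ)
      have h1 := hQ n
      have h2 := hs0 (j + n)
      have h3 : 1 < n * δ := by
        rwa [div_lt_iff₀ hδ0] at hn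
      linarith
  exact hlt i e (by rw [hall i]; exact he)

end Interp

/-- **Interpolation.** -/
theorem interp (M : ℕ → ℝ) (i : ℕ) {ε r R : ℝ} (hε : 0 < ε) (hr : r < R) :
    ∃ C, 0 ≤ C ∧ ∀ (f : E → F) (c : E) (ρ : ℝ), ContDiffOn ℝ ∞ f (ball c R) →
      (∀ k, ∀ y ∈ ball c R, ‖iteratedFDeriv ℝ k f y‖ ≤ M k) → 0 < ρ → ρ ≤ 1 →
      (∀ y ∈ ball c R, ‖f y‖ ≤ ρ) → ∀ y ∈ ball c r, ‖iteratedFDeriv ℝ i f y‖ ≤ C * ρ ^ (1 - ε) :=
  Ok.all M R i (by linarith) r hr

/-- Smooth functions whose differences are summable, with all derivatives, have a smooth limit. -/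
theorem limit [CompleteSpace F] {f : ℕ → E → F} {Y : E → F} {U : Set E} (hU : IsOpen U)
    (hf : ∀ n, ContDiffOn ℝ ∞ (f n) U) {q : ℝ} (hq : q < 1) {B : ℕ → ℝ}
    (hB : ∀ i n, ∀ x ∈ U,
      ‖iteratedFDeriv ℝ i (f (n + 1)) x - iteratedFDeriv ℝ i (f n) x‖ ≤ B i * q ^ n)
    (hq0 : 0 ≤ q) (hY : ∀ x ∈ U, Tendsto (fun n => f n x) atTop (𝓝 (Y x))) :
    ContDiffOn ℝ ∞ Y U ∧ ∀ i n, ∀ x ∈ U,
      ‖iteratedFDeriv ℝ i Y x - iteratedFDeriv ℝ i (f n) x‖ ≤ B i * q ^ n / (1 - q) := by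
  have hd : ∀ i n, ∀ x ∈ U,
      dist (iteratedFDeriv ℝ i (f n) x) (iteratedFDeriv ℝ i (f (n + 1)) x) ≤ B i * q ^ n := by
    intro i n x hx
    rw [dist_comm, dist_eq_norm]
    exact hB i n x hx
  have hlim : ∀ i, ∀ x ∈ U, ∃ g, Tendsto (fun n => iteratedFDeriv ℝ i (f n) x) atTop (𝓝 g) :=
    fun i x hx => cauchySeq_tendsto_of_complete
      (cauchySeq_of_le_geometric q (B i) hq (fun n => hd i n x hx))
  choose! G hG using hlim
  have hest : ∀ i n, ∀ x ∈ U, ‖G i x - iteratedFDeriv ℝ i (f n) x‖ ≤ B i * q ^ n / (1 - q) := by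
    intro i n x hx
    rw [← dist_eq_norm, dist_comm]
    exact dist_le_of_le_geometric_of_tendsto q (B i) hq (fun n => hd i n x hx) (hG i x hx) n
  have hunif : ∀ i, TendstoUniformlyOn (fun n => iteratedFDeriv ℝ i (f n)) (G i) atTop U := by
    intro i
    rw [Metric.tendstoUniformlyOn_iff]
    intro ε hε
    have h1 : Tendsto (fun n : ℕ => B i * q ^ n / (1 - q)) atTop (𝓝 0) := by
      have h2 := (tendsto_pow_atTop_nhds_zero_of_lt_one hq0 hq).const_mul (B i)
      have h3 := h2.div_const (1 - q)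
      simpa using h3
    filter_upwards [h1.eventually (gt_mem_nhds hε)] with n hn x hx
    rw [dist_eq_norm]
    exact (hest i n x hx).trans_lt hn
  have hT : HasFTaylorSeriesUpToOn ∞ Y (fun x i => G i x) U := by
    refine ⟨fun x hx => ?_, fun i _ x hx => ?_, fun i _ => ?_⟩
    · have h1 : Tendsto (fun n => (iteratedFDeriv ℝ 0 (f n) x).curry0) atTop
          (𝓝 ((G 0 x).curry0)) :=
        ((continuousMultilinearCurryFin0 ℝ E F).continuous.tendsto _).comp (hG 0 x hx)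
      have h2 : (fun n => (iteratedFDeriv ℝ 0 (f n) x).curry0) = fun n => f n x := by
        funext n
        simp [ContinuousMultilinearMap.curry0]
      rw [h2] at h1
      exact tendsto_nhds_unique h1 (hY x hx)
    · have h1 : TendstoUniformlyOn
          (fun n x => (iteratedFDeriv ℝ (i + 1) (f n) x).curryLeft)
          (fun x => (G (i + 1) x).curryLeft) atTop U :=
        (continuousMultilinearCurryLeftEquiv ℝ (fun _ : Fin (i + 1) => E) F).isometry
          |>.uniformContinuous.comp_tendstoUniformlyOn (hunif (i + 1))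
      exact (hasFDerivAt_of_tendstoUniformlyOn hU h1
        (fun n x hx => hasFDerivAt_iter hU (hf n) i hx) (fun x hx => hG i x hx) hx).hasFDerivWithinAt
    · refine (hunif i).continuousOn (Frequently.of_forall fun n x hx => ?_)
      exact (hasFDerivAt_iter hU (hf n) i hx).continuousAt.continuousWithinAt
  refine ⟨hT.contDiffOn, fun i n x hx => ?_⟩
  have h1 : G i x = iteratedFDeriv ℝ i Y x := by
    have h2 := hT.eq_iteratedFDerivWithin_of_uniqueDiffOn (m := i)
      (by exact_mod_cast le_top) hU.uniqueDiffOn hx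
    rw [iteratedFDerivWithin_of_isOpen i hU hx] at h2
    exact h2
  rw [← h1]
  exact hest i n x hx


/-- the exponent of `interp` which absorbs the price `lam` -/
theorem exists_eps {lam mu : ℝ} (hlam : 1 ≤ lam) (hmu0 : 0 < mu) (hmu : mu < 1) :
    ∃ ε : ℝ, 0 < ε ∧ ε < 1 ∧ lam * (mu / lam) ^ (1 - ε) < 1 := by
  have hl0 : 0 < lam := by linarith
  have hc : ContinuousAt (fun ε : ℝ => lam * (mu / lam) ^ (1 - ε)) 0 := by
    have h1 : ContinuousAt (fun ε : ℝ => (mu / lam) ^ (1 - ε)) 0 := by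
      refine ContinuousAt.rpow continuousAt_const (by fun_prop) (Or.inl ?_)
      positivity
    exact continuousAt_const.mul h1
  have h0 : lam * (mu / lam) ^ (1 - (0 : ℝ)) < 1 := by
    rw [sub_zero, Real.rpow_one]
    have : lam * (mu / lam) = mu := by field_simp
    rwa [this]
  have h2 : ∀ᶠ ε in 𝓝[>] (0 : ℝ), lam * (mu / lam) ^ (1 - ε) < 1 :=
    nhdsWithin_le_nhds (hc.eventually_lt continuousAt_const h0)
  have h3 : ∀ᶠ ε in 𝓝[>] (0 : ℝ), ε ∈ Ioo (0 : ℝ) 1 := Ioo_mem_nhdsGT one_pos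
  obtain ⟨ε, h4, h5⟩ := (h2.and h3).exists
  exact ⟨ε, h5.1, h5.2, h4⟩

/-- Differences of approximations at the price `lam ^ j`: geometric decay of all derivatives. -/
theorem diff_bound (M : ℕ → ℝ) {C lam mu r R : ℝ} (hlam : 1 ≤ lam) (hmu0 : 0 < mu) (hmu : mu < 1)
    (hr : r < R) :
    ∃ q : ℝ, 0 ≤ q ∧ q < 1 ∧ ∃ B : ℕ → ℝ, (∀ i, 0 ≤ B i) ∧ ∀ (Y : E → F) (c : E) (Φ : ℕ → E → F),
      (∀ j, ContDiffOn ℝ ∞ (Φ j) (ball c R)) →
      (∀ j k, ∀ x ∈ ball c R, ‖iteratedFDeriv ℝ k (Φ j) x‖ ≤ M k * lam ^ j) →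
      (∀ j, ∀ x ∈ ball c R, ‖Y x - Φ j x‖ ≤ C * mu ^ j) →
      ∀ i j, ∀ x ∈ ball c r,
        ‖iteratedFDeriv ℝ i (Φ (j + 1)) x - iteratedFDeriv ℝ i (Φ j) x‖ ≤ B i * q ^ j := by
  have hl0 : 0 < lam := by linarith
  obtain ⟨ε, hε, hε1, hq1⟩ := exists_eps hlam hmu0 hmu
  set q : ℝ := lam * (mu / lam) ^ (1 - ε) with hq
  have hq0 : 0 < q := by positivity
  set C' : ℝ := max C 1 with hC'
  have hC1 : 1 ≤ C' := le_max_right _ _
  have hCC : C ≤ C' := le_max_left _ _
  have hC0 : 0 < C' := by linarith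
  set M' : ℕ → ℝ := fun k => |M k| * lam / C' with hM'
  choose K hK0 hK using fun i : ℕ => interp (E := E) (F := F) M' i hε hr
  refine ⟨q, hq0.le, hq1, fun i => 2 * C' * K i, fun i => by have := hK0 i; positivity,
    fun Y c Φ hs hM hY i j x hx => ?_⟩
  have hlj : 0 < lam ^ j := by positivity
  set a : ℝ := (2 * C' * lam ^ j)⁻¹ with ha
  have ha0 : 0 < a := by positivity
  set f : E → F := a • (Φ (j + 1) - Φ j) with hf
  set ρ : ℝ := (mu / lam) ^ j with hρ
  have hρ0 : 0 < ρ := by positivity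
  have hml : mu / lam ≤ 1 := by
    rw [div_le_one hl0]; linarith
  have hρ1 : ρ ≤ 1 := pow_le_one₀ (by positivity) hml
  have hsub : ContDiffOn ℝ ∞ (Φ (j + 1) - Φ j) (ball c R) := (hs (j + 1)).sub (hs j)
  have hfs : ContDiffOn ℝ ∞ f (ball c R) := hsub.const_smul a
  have hder : ∀ k, ∀ y ∈ ball c R, iteratedFDeriv ℝ k f y
      = a • (iteratedFDeriv ℝ k (Φ (j + 1)) y - iteratedFDeriv ℝ k (Φ j) y) := by
    intro k y hy
    have hy' := isOpen_ball.mem_nhds hy
    have h1 : ContDiffAt ℝ k (Φ (j + 1) - Φ j) y :=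
      (hsub.contDiffAt hy').of_le (by exact_mod_cast le_top)
    rw [hf, iteratedFDeriv_const_smul_apply h1, iteratedFDeriv_sub_apply
      (((hs (j + 1)).contDiffAt hy').of_le (by exact_mod_cast le_top))
      (((hs j).contDiffAt hy').of_le (by exact_mod_cast le_top))]
  have h1 : ∀ k, ∀ y ∈ ball c R, ‖iteratedFDeriv ℝ k f y‖ ≤ M' k := by
    intro k y hy
    rw [hder k y hy, norm_smul, Real.norm_of_nonneg ha0.le]
    have h2 : ‖iteratedFDeriv ℝ k (Φ (j + 1)) y - iteratedFDeriv ℝ k (Φ j) y‖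
        ≤ 2 * (|M k| * (lam * lam ^ j)) := by
      refine (norm_sub_le _ _).trans ?_
      have h3 := hM (j + 1) k y hy
      have h4 := hM j k y hy
      have h5 : M k * lam ^ (j + 1) ≤ |M k| * (lam * lam ^ j) := by
        rw [pow_succ']
        exact mul_le_mul_of_nonneg_right (le_abs_self _) (by positivity)
      have h6 : M k * lam ^ j ≤ |M k| * (lam * lam ^ j) := by
        have : lam ^ j ≤ lam * lam ^ j := by nlinarith
        calc M k * lam ^ j ≤ |M k| * lam ^ j :=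
              mul_le_mul_of_nonneg_right (le_abs_self _) (by positivity)
          _ ≤ |M k| * (lam * lam ^ j) := mul_le_mul_of_nonneg_left this (abs_nonneg _)
      linarith
    calc a * ‖iteratedFDeriv ℝ k (Φ (j + 1)) y - iteratedFDeriv ℝ k (Φ j) y‖
        ≤ a * (2 * (|M k| * (lam * lam ^ j))) := by gcongr
      _ = M' k := by
        rw [ha, hM']
        field_simp
  have h2 : ∀ y ∈ ball c R, ‖f y‖ ≤ ρ := by
    intro y hy
    have e1 : f y = a • (Φ (j + 1) y - Φ j y) := rfl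
    rw [e1, norm_smul, Real.norm_of_nonneg ha0.le]
    have h3 := hY (j + 1) y hy
    have h4 := hY j y hy
    have h5 : ‖Φ (j + 1) y - Φ j y‖ ≤ 2 * C' * mu ^ j := by
      have e2 : Φ (j + 1) y - Φ j y = (Y y - Φ j y) - (Y y - Φ (j + 1) y) := by abel
      rw [e2]
      refine (norm_sub_le _ _).trans ?_
      have h6 : C * mu ^ j ≤ C' * mu ^ j := mul_le_mul_of_nonneg_right hCC (by positivity)
      have h7 : C * mu ^ (j + 1) ≤ C' * mu ^ j := by
        have : mu ^ (j + 1) ≤ mu ^ j := pow_le_pow_of_le_one hmu0.le hmu.le (by omega)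
        calc C * mu ^ (j + 1) ≤ C' * mu ^ (j + 1) :=
              mul_le_mul_of_nonneg_right hCC (by positivity)
          _ ≤ C' * mu ^ j := mul_le_mul_of_nonneg_left this hC0.le
      linarith
    calc a * ‖Φ (j + 1) y - Φ j y‖ ≤ a * (2 * C' * mu ^ j) := by gcongr
      _ = ρ := by
        rw [ha, hρ, div_pow]
        field_simp
  have key := hK i f c ρ hfs h1 hρ0 hρ1 h2 x hx
  have hxR : x ∈ ball c R := ball_subset_ball hr.le hx
  rw [hder i x hxR, norm_smul, Real.norm_of_nonneg ha0.le] at key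
  have h3 : ‖iteratedFDeriv ℝ i (Φ (j + 1)) x - iteratedFDeriv ℝ i (Φ j) x‖
      ≤ (2 * C' * lam ^ j) * (K i * ρ ^ (1 - ε)) := by
    have h4 : ‖iteratedFDeriv ℝ i (Φ (j + 1)) x - iteratedFDeriv ℝ i (Φ j) x‖
        = (2 * C' * lam ^ j) *
          (a * ‖iteratedFDeriv ℝ i (Φ (j + 1)) x - iteratedFDeriv ℝ i (Φ j) x‖) := by
      rw [ha]; field_simp
    rw [h4]
    gcongr
  refine h3.trans (le_of_eq ?_)
  have h5 : ρ ^ (1 - ε) = ((mu / lam) ^ (1 - ε)) ^ j := by
    rw [hρ, ← Real.rpow_natCast, ← Real.rpow_mul (by positivity), mul_comm,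
      Real.rpow_mul (by positivity), Real.rpow_natCast]
  rw [h5, hq, mul_pow]
  ring

/-- **Telescoping**, along a geometric sequence. -/
theorem tele_seq [CompleteSpace F] (M : ℕ → ℝ) {C lam mu r R : ℝ} (hlam : 1 ≤ lam)
    (hmu0 : 0 < mu) (hmu : mu < 1) (hr : r < R) :
    ∃ K : ℕ → ℝ, ∀ (Y : E → F) (c : E) (Φ : ℕ → E → F),
      (∀ j, ContDiffOn ℝ ∞ (Φ j) (ball c R)) →
      (∀ j k, ∀ x ∈ ball c R, ‖iteratedFDeriv ℝ k (Φ j) x‖ ≤ M k * lam ^ j) →
      (∀ j, ∀ x ∈ ball c R, ‖Y x - Φ j x‖ ≤ C * mu ^ j) →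
      ContDiffOn ℝ ∞ Y (ball c R) ∧ ∀ k, ∀ x ∈ ball c r, ‖iteratedFDeriv ℝ k Y x‖ ≤ K k := by
  obtain ⟨q, hq0, hq1, B, hB0, hB⟩ := diff_bound (E := E) (F := F) (C := C) M hlam hmu0 hmu hr
  refine ⟨fun k => |M k| + B k / (1 - q), fun Y c Φ hs hM hY => ⟨?_, fun k x hx => ?_⟩⟩
  · intro x hx
    have hx' : dist x c < R := hx
    set r' : ℝ := (dist x c + R) / 2 with hr'
    have h1 : r' < R := by rw [hr']; linarith
    have h2 : x ∈ ball c r' := by rw [mem_ball, hr']; linarith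
    obtain ⟨q', hq0', hq1', B', -, hB'⟩ :=
      diff_bound (E := E) (F := F) (C := C) M hlam hmu0 hmu h1
    have hlim : ∀ y ∈ ball c r', Tendsto (fun n => Φ n y) atTop (𝓝 (Y y)) := by
      intro y hy
      rw [tendsto_iff_norm_sub_tendsto_zero]
      have h3 : Tendsto (fun n : ℕ => C * mu ^ n) atTop (𝓝 0) := by
        simpa using (tendsto_pow_atTop_nhds_zero_of_lt_one hmu0.le hmu).const_mul C
      refine squeeze_zero (fun n => norm_nonneg _) (fun n => ?_) h3
      rw [norm_sub_rev]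
      exact hY n y (ball_subset_ball h1.le hy)
    have h4 := (limit isOpen_ball (fun n => (hs n).mono (ball_subset_ball h1.le)) hq1'
      (fun i n y hy => hB' Y c Φ hs hM hY i n y hy) hq0' hlim).1
    exact (h4.contDiffAt (isOpen_ball.mem_nhds h2)).contDiffWithinAt
  · have hlim : ∀ y ∈ ball c r, Tendsto (fun n => Φ n y) atTop (𝓝 (Y y)) := by
      intro y hy
      rw [tendsto_iff_norm_sub_tendsto_zero]
      have h3 : Tendsto (fun n : ℕ => C * mu ^ n) atTop (𝓝 0) := by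
        simpa using (tendsto_pow_atTop_nhds_zero_of_lt_one hmu0.le hmu).const_mul C
      refine squeeze_zero (fun n => norm_nonneg _) (fun n => ?_) h3
      rw [norm_sub_rev]
      exact hY n y (ball_subset_ball hr.le hy)
    have h4 := (limit isOpen_ball (fun n => (hs n).mono (ball_subset_ball hr.le)) hq1
      (fun i n y hy => hB Y c Φ hs hM hY i n y hy) hq0 hlim).2 k 0 x hx
    have h5 := hM 0 k x (ball_subset_ball hr.le hx)
    rw [pow_zero, mul_one] at h4 h5
    have h6 : iteratedFDeriv ℝ k Y x = (iteratedFDeriv ℝ k Y x - iteratedFDeriv ℝ k (Φ 0) x)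
        + iteratedFDeriv ℝ k (Φ 0) x := by abel
    rw [h6]
    refine (norm_add_le _ _).trans ?_
    have := le_abs_self (M k)
    linarith

/-- **Telescoping.** If `Y` is approximated, for all small `t`, to the order `t ^ θ` by smooth
functions all of whose derivatives are bounded by multiples of `t ^ (-p)`, then `Y` is smooth with
uniform bounds. -/
theorem tele [CompleteSpace F] (M : ℕ → ℝ) {C θ p t₀ r R : ℝ} (hθ : 0 < θ) (hp : 0 ≤ p)
    (ht : 0 < t₀) (hr : r < R) :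
    ∃ K : ℕ → ℝ, ∀ (Y : E → F) (c : E), (∀ t ∈ Ioo 0 t₀, ∃ Φ : E → F,
        ContDiffOn ℝ ∞ Φ (ball c R) ∧
        (∀ k, ∀ x ∈ ball c R, ‖iteratedFDeriv ℝ k Φ x‖ ≤ M k * t ^ (-p)) ∧
        ∀ x ∈ ball c R, ‖Y x - Φ x‖ ≤ C * t ^ θ) →
      ContDiffOn ℝ ∞ Y (ball c R) ∧ ∀ k, ∀ x ∈ ball c r, ‖iteratedFDeriv ℝ k Y x‖ ≤ K k := by
  set s : ℝ := t₀ / 2 with hs
  have hs0 : 0 < s := by rw [hs]; linarith
  have hmu1 : (1 / 2 : ℝ) ^ θ < 1 := Real.rpow_lt_one (by norm_num) (by norm_num) hθ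
  have hmu0 : 0 < (1 / 2 : ℝ) ^ θ := by positivity
  have hlam : 1 ≤ (2 : ℝ) ^ p := Real.one_le_rpow (by norm_num) hp
  obtain ⟨K, hK⟩ := tele_seq (E := E) (F := F) (fun k => M k * s ^ (-p)) (C := C * s ^ θ)
    hlam hmu0 hmu1 hr
  refine ⟨K, fun Y c h => ?_⟩
  have htj : ∀ j : ℕ, s * (1 / 2) ^ j ∈ Ioo 0 t₀ := by
    intro j
    have h1 : (1 / 2 : ℝ) ^ j ≤ 1 := pow_le_one₀ (by norm_num) (by norm_num)
    have h2 : 0 < (1 / 2 : ℝ) ^ j := by positivity
    refine ⟨by positivity, ?_⟩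
    have : s * (1 / 2) ^ j ≤ s * 1 := by gcongr
    have : s < t₀ := by rw [hs]; linarith
    linarith
  choose Φ hΦ1 hΦ2 hΦ3 using fun j : ℕ => h _ (htj j)
  refine hK Y c Φ hΦ1 (fun j k x hx => ?_) (fun j x hx => ?_)
  · refine (hΦ2 j k x hx).trans (le_of_eq ?_)
    have h1 : (s * (1 / 2) ^ j) ^ (-p) = s ^ (-p) * ((2 : ℝ) ^ p) ^ j := by
      rw [Real.mul_rpow hs0.le (by positivity)]
      congr 1
      rw [← Real.rpow_natCast ((2 : ℝ) ^ p) j, ← Real.rpow_mul (by norm_num),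
        ← Real.rpow_natCast (1 / 2 : ℝ) j, ← Real.rpow_mul (by norm_num),
        one_div, Real.inv_rpow (by norm_num), ← Real.rpow_neg (by norm_num)]
      congr 1
      ring
    rw [h1]; ring
  · refine (hΦ3 j x hx).trans (le_of_eq ?_)
    have h1 : (s * (1 / 2) ^ j) ^ θ = s ^ θ * ((1 / 2 : ℝ) ^ θ) ^ j := by
      rw [Real.mul_rpow hs0.le (by positivity)]
      congr 1
      rw [← Real.rpow_natCast ((1 / 2 : ℝ) ^ θ) j, ← Real.rpow_mul (by norm_num),
        ← Real.rpow_natCast (1 / 2 : ℝ) j, ← Real.rpow_mul (by norm_num)]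
      congr 1
      ring
    rw [h1]; ring

end Vale.Agent.P207.H558.Tele
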