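import Mathlib

/-!
# P207, all dimensions, step 7: calculus of uniform 2-jets at the origin

`HasJet R s C f`: on the ball of radius `R` the map `f` is a polynomial of degree two with coefficients
bounded by `C`, up to an error `C ‖z‖ ^ s` (`2 ≤ s ≤ 3`). All constants are explicit.
-/

open Set Filter Topology Metric
open scoped ContDiff RealInnerProductSpace

set_option maxSynthPendingDepth 3
set_option linter.unusedSectionVars false

noncomputable section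

namespace Vale.Agent.P207.H558

variable {E G H G' : Type*} [NormedAddCommGroup E] [NormedSpace ℝ E] [NormedAddCommGroup G]
  [NormedSpace ℝ G] [NormedAddCommGroup H] [NormedSpace ℝ H] [NormedAddCommGroup G']
  [NormedSpace ℝ G']

/-- uniform 2-jet at `0` with error `‖z‖ ^ s` -/
def HasJet (R s C : ℝ) (f : E → G) : Prop :=
  ∃ (a : G) (L : E →L[ℝ] G) (Q : E →L[ℝ] E →L[ℝ] G), ‖a‖ ≤ C ∧ ‖L‖ ≤ C ∧ ‖Q‖ ≤ C ∧
    ∀ z ∈ ball (0 : E) R, ‖f z - (a + L z + Q z z)‖ ≤ C * ‖z‖ ^ s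

variable {R s C K : ℝ} {f : E → G} {g : E → H}

theorem HasJet.nonneg (hf : HasJet R s C f) : 0 ≤ C := by
  obtain ⟨a, L, Q, ha, _⟩ := hf
  exact (norm_nonneg a).trans ha

theorem HasJet.mono (hf : HasJet R s C f) {C' : ℝ} (h : C ≤ C') : HasJet R s C' f := by
  obtain ⟨a, L, Q, ha, hL, hQ, hr⟩ := hf
  refine ⟨a, L, Q, ha.trans h, hL.trans h, hQ.trans h, fun z hz => (hr z hz).trans ?_⟩
  exact mul_le_mul_of_nonneg_right h (Real.rpow_nonneg (norm_nonneg _) _)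

theorem HasJet.mono_R (hf : HasJet R s C f) {R' : ℝ} (h : R' ≤ R) : HasJet R' s C f := by
  obtain ⟨a, L, Q, ha, hL, hQ, hr⟩ := hf
  exact ⟨a, L, Q, ha, hL, hQ, fun z hz => hr z (ball_subset_ball h hz)⟩

theorem HasJet.congr (hf : HasJet R s C f) {f' : E → G} (h : ∀ z ∈ ball (0 : E) R, f' z = f z) :
    HasJet R s C f' := by
  obtain ⟨a, L, Q, ha, hL, hQ, hr⟩ := hf
  exact ⟨a, L, Q, ha, hL, hQ, fun z hz => by rw [h z hz]; exact hr z hz⟩

theorem HasJet.of_err (hf : HasJet R s C f) {f' : E → G} {K : ℝ} (hK : 0 ≤ K)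
    (h : ∀ z ∈ ball (0 : E) R, ‖f' z - f z‖ ≤ K * ‖z‖ ^ s) : HasJet R s (C + K) f' := by
  obtain ⟨a, L, Q, ha, hL, hQ, hr⟩ := hf
  refine ⟨a, L, Q, by linarith, by linarith, by linarith, fun z hz => ?_⟩
  have h1 : f' z - (a + L z + Q z z) = (f' z - f z) + (f z - (a + L z + Q z z)) := by abel
  rw [h1, add_mul]
  exact (norm_add_le _ _).trans (by linarith [h z hz, hr z hz])

theorem hasJet_const (c : G) : HasJet R s ‖c‖ (fun _ : E => c) := by
  refine ⟨c, 0, 0, le_rfl, by simp, by simp, fun z _ => ?_⟩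
  simp only [_root_.zero_apply, add_zero, sub_self, norm_zero]
  exact mul_nonneg (norm_nonneg _) (Real.rpow_nonneg (norm_nonneg _) _)

theorem hasJet_clm (L : E →L[ℝ] G) : HasJet R s ‖L‖ (fun z : E => L z) := by
  refine ⟨0, L, 0, by simp, le_rfl, by simp, fun z _ => ?_⟩
  simp only [_root_.zero_apply, add_zero, zero_add, sub_self, norm_zero]
  exact mul_nonneg (norm_nonneg _) (Real.rpow_nonneg (norm_nonneg _) _)

theorem hasJet_quad (Q : E →L[ℝ] E →L[ℝ] G) : HasJet R s ‖Q‖ (fun z : E => Q z z) := by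
  refine ⟨0, 0, Q, by simp, by simp, le_rfl, fun z _ => ?_⟩
  simp only [_root_.zero_apply, zero_add, sub_self, norm_zero]
  exact mul_nonneg (norm_nonneg _) (Real.rpow_nonneg (norm_nonneg _) _)

theorem HasJet.add {g : E → G} (hf : HasJet R s C f) (hg : HasJet R s K g) :
    HasJet R s (C + K) (fun z => f z + g z) := by
  obtain ⟨a, L, Q, ha, hL, hQ, hr⟩ := hf
  obtain ⟨a', L', Q', ha', hL', hQ', hr'⟩ := hg
  refine ⟨a + a', L + L', Q + Q', (norm_add_le _ _).trans (add_le_add ha ha'),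
    (norm_add_le _ _).trans (add_le_add hL hL'), (norm_add_le _ _).trans (add_le_add hQ hQ'),
    fun z hz => ?_⟩
  have h1 : f z + g z - (a + a' + (L + L') z + (Q + Q') z z) =
      (f z - (a + L z + Q z z)) + (g z - (a' + L' z + Q' z z)) := by
    simp only [_root_.add_apply]; abel
  rw [h1, add_mul]
  exact (norm_add_le _ _).trans (add_le_add (hr z hz) (hr' z hz))

/-- a continuous linear map applied to a jet -/
theorem HasJet.clm (B : G →L[ℝ] G') (hf : HasJet R s C f) :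
    HasJet R s (‖B‖ * C) (fun z => B (f z)) := by
  have hC := hf.nonneg
  obtain ⟨a, L, Q, ha, hL, hQ, hr⟩ := hf
  refine ⟨B a, B.comp L, (ContinuousLinearMap.compL ℝ E G G' B).comp Q, ?_, ?_, ?_, fun z hz => ?_⟩
  · exact (B.le_opNorm a).trans (mul_le_mul_of_nonneg_left ha (norm_nonneg _))
  · exact (B.opNorm_comp_le L).trans (mul_le_mul_of_nonneg_left hL (norm_nonneg _))
  · refine ContinuousLinearMap.opNorm_le_bound _ (mul_nonneg (norm_nonneg _) hC) fun x => ?_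
    have h1 : ((ContinuousLinearMap.compL ℝ E G G' B).comp Q) x = B.comp (Q x) := rfl
    rw [h1]
    refine (B.opNorm_comp_le (Q x)).trans ?_
    rw [mul_assoc]
    refine mul_le_mul_of_nonneg_left ?_ (norm_nonneg _)
    exact (Q.le_opNorm x).trans (mul_le_mul_of_nonneg_right hQ (norm_nonneg _))
  · have h1 : B (f z) - (B a + (B.comp L) z +
        ((ContinuousLinearMap.compL ℝ E G G' B).comp Q) z z) = B (f z - (a + L z + Q z z)) := by
      simp only [map_sub, map_add]; rfl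
    rw [h1, mul_assoc]
    exact (B.le_opNorm _).trans (mul_le_mul_of_nonneg_left (hr z hz) (norm_nonneg _))

theorem HasJet.neg (hf : HasJet R s C f) : HasJet R s C (fun z => - f z) := by
  obtain ⟨a, L, Q, ha, hL, hQ, hr⟩ := hf
  refine ⟨-a, -L, -Q, by rwa [norm_neg], by rwa [norm_neg], by rwa [norm_neg], fun z hz => ?_⟩
  have h1 : - f z - (-a + (-L) z + (-Q) z z) = -(f z - (a + L z + Q z z)) := by
    simp only [_root_.neg_apply]; abel
  rw [h1, norm_neg]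
  exact hr z hz

theorem HasJet.sub {g : E → G} (hf : HasJet R s C f) (hg : HasJet R s K g) :
    HasJet R s (C + K) (fun z => f z - g z) := by
  have h := hf.add hg.neg
  simpa only [sub_eq_add_neg] using h

theorem HasJet.const_smul (c : ℝ) (hf : HasJet R s C f) :
    HasJet R s (|c| * C) (fun z => c • f z) := by
  have hC := hf.nonneg
  have h := hf.clm (c • ContinuousLinearMap.id ℝ G)
  refine (h.mono ?_).congr fun z _ => by simp
  refine mul_le_mul_of_nonneg_right ?_ hC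
  refine (norm_smul_le c _).trans ?_
  rw [Real.norm_eq_abs]
  exact mul_le_of_le_one_right (abs_nonneg c) ContinuousLinearMap.norm_id_le

/-- powers of a number at most one -/
theorem pow_le_rpow {t : ℝ} (ht : 0 ≤ t) (ht1 : t ≤ 1) (hs0 : 0 < s) {n : ℕ} (hn : s ≤ n) :
    t ^ n ≤ t ^ s := by
  rcases ht.eq_or_lt with rfl | h
  · rw [Real.zero_rpow hs0.ne']
    have : n ≠ 0 := by
      rintro rfl
      push_cast at hn
      linarith
    rw [zero_pow this]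
  · rw [← Real.rpow_natCast]
    exact Real.rpow_le_rpow_of_exponent_ge h ht1 hn

theorem inv_expand {α : Type*} [Ring α] {A X Fi : α} (e2 : A * X * Fi = A - Fi) :
    Fi - (A - A * X * A + A * X * A * (X * A)) = -(A * X * (A * X * (A * X * Fi))) := by
  have e3 : A * X * (A * X * A) = A * X * A * (X * A) := by
    simp only [mul_assoc]
  rw [e2, mul_sub (A * X) A Fi, e2, mul_sub, mul_sub, e2, e3]
  abel

section
variable (hR : R ≤ 1) (hs2 : 2 ≤ s) (hs3 : s ≤ 3)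
include hR

theorem norm_lt_one {z : E} (hz : z ∈ ball (0 : E) R) : ‖z‖ ≤ 1 := by
  rw [mem_ball_zero_iff] at hz
  linarith

include hs2

omit hR in
theorem rpow_le_norm {t : ℝ} (ht : 0 ≤ t) (ht1 : t ≤ 1) : t ^ s ≤ t ^ 2 := by
  rcases ht.eq_or_lt with rfl | h
  · rw [Real.zero_rpow (by linarith)]; norm_num
  · have h1 : t ^ s ≤ t ^ ((2 : ℕ) : ℝ) :=
      Real.rpow_le_rpow_of_exponent_ge h ht1 (by push_cast; linarith)
    rwa [Real.rpow_natCast] at h1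

theorem HasJet.norm_le (hf : HasJet R s C f) {z : E} (hz : z ∈ ball (0 : E) R) :
    ‖f z‖ ≤ 4 * C := by
  have hC := hf.nonneg
  obtain ⟨a, L, Q, ha, hL, hQ, hr⟩ := hf
  have hz1 := norm_lt_one hR hz
  have h0 := norm_nonneg z
  have h1 : ‖L z‖ ≤ C * ‖z‖ := (L.le_opNorm z).trans (mul_le_mul_of_nonneg_right hL h0)
  have h2 : ‖Q z z‖ ≤ C * ‖z‖ * ‖z‖ :=
    (Q.le_opNorm₂ z z).trans (mul_le_mul_of_nonneg_right (mul_le_mul_of_nonneg_right hQ h0) h0)
  have h3 : ‖z‖ ^ s ≤ ‖z‖ ^ 2 := rpow_le_norm hs2 h0 hz1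
  have h4 : ‖z‖ ^ 2 ≤ 1 := pow_le_one₀ h0 hz1
  have h5 := hr z hz
  have h6 : ‖f z‖ ≤ ‖f z - (a + L z + Q z z)‖ + ‖a + L z + Q z z‖ := by
    simpa using norm_add_le (f z - (a + L z + Q z z)) (a + L z + Q z z)
  have h7 : ‖a + L z + Q z z‖ ≤ ‖a‖ + ‖L z‖ + ‖Q z z‖ := norm_add₃_le
  have h8 : C * ‖z‖ ^ s ≤ C * 1 := mul_le_mul_of_nonneg_left (h3.trans h4) hC
  have h9 : C * ‖z‖ ≤ C * 1 := mul_le_mul_of_nonneg_left hz1 hC
  have h10 : C * ‖z‖ * ‖z‖ ≤ C * 1 * 1 := mul_le_mul h9 hz1 h0 (by linarith)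
  linarith

omit hR in
theorem HasJet.zero_eq (hf : HasJet R s C f) (hR0 : 0 < R) :
    ∃ (L : E →L[ℝ] G) (Q : E →L[ℝ] E →L[ℝ] G), ‖f 0‖ ≤ C ∧ ‖L‖ ≤ C ∧ ‖Q‖ ≤ C ∧
    ∀ z ∈ ball (0 : E) R, ‖f z - (f 0 + L z + Q z z)‖ ≤ C * ‖z‖ ^ s := by
  obtain ⟨a, L, Q, ha, hL, hQ, hr⟩ := hf
  have h0 := hr 0 (mem_ball_self hR0)
  have hs0 : (0 : ℝ) ^ s = 0 := Real.zero_rpow (by linarith)
  simp only [map_zero, add_zero, norm_zero, hs0, mul_zero] at h0
  have h1 : f 0 = a := by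
    rw [← sub_eq_zero, ← norm_le_zero_iff]; exact h0
  rw [h1]
  exact ⟨L, Q, ha, hL, hQ, hr⟩

/-- first order control -/
theorem HasJet.sub_zero_le (hf : HasJet R s C f) {z : E} (hz : z ∈ ball (0 : E) R) :
    ‖f z - f 0‖ ≤ 3 * C * ‖z‖ := by
  have hC := hf.nonneg
  have hR0 : 0 < R := by
    rw [mem_ball_zero_iff] at hz; exact (norm_nonneg z).trans_lt hz
  obtain ⟨L, Q, ha, hL, hQ, hr⟩ := HasJet.zero_eq hs2 hf hR0
  have hz1 := norm_lt_one hR hz
  have h0 := norm_nonneg z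
  have h1 : ‖L z‖ ≤ C * ‖z‖ := (L.le_opNorm z).trans (mul_le_mul_of_nonneg_right hL h0)
  have h2 : ‖Q z z‖ ≤ C * ‖z‖ * ‖z‖ :=
    (Q.le_opNorm₂ z z).trans (mul_le_mul_of_nonneg_right (mul_le_mul_of_nonneg_right hQ h0) h0)
  have h3 : ‖z‖ ^ s ≤ ‖z‖ ^ 2 := rpow_le_norm hs2 h0 hz1
  have h4 : ‖z‖ ^ 2 ≤ ‖z‖ := by nlinarith
  have h5 := hr z hz
  have h6 : ‖f z - f 0‖ ≤ ‖f z - (f 0 + L z + Q z z)‖ + (‖L z‖ + ‖Q z z‖) := by
    have e : f z - f 0 = (f z - (f 0 + L z + Q z z)) + (L z + Q z z) := by abel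
    rw [e]
    exact (norm_add_le _ _).trans (by gcongr; exact norm_add_le _ _)
  have h8 : C * ‖z‖ ^ s ≤ C * ‖z‖ := mul_le_mul_of_nonneg_left (h3.trans h4) hC
  have h10 : C * ‖z‖ * ‖z‖ ≤ C * ‖z‖ * 1 := mul_le_mul_of_nonneg_left hz1 (by positivity)
  linarith

include hs3

/-- bilinear product -/
theorem HasJet.bilin (B : G →L[ℝ] H →L[ℝ] G') (hf : HasJet R s C f) (hg : HasJet R s K g) :
    HasJet R s (10 * ‖B‖ * C * K) (fun z => B (f z) (g z)) := by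
  have hC := hf.nonneg
  have hK := hg.nonneg
  have hB := norm_nonneg B
  have hgn := fun {z : E} (hz : z ∈ ball (0 : E) R) => HasJet.norm_le hR hs2 hg hz
  obtain ⟨a, L, Q, ha, hL, hQ, hr⟩ := hf
  obtain ⟨a', L', Q', ha', hL', hQ', hr'⟩ := hg
  have hBCK : 0 ≤ ‖B‖ * C * K := by positivity
  -- the coefficients
  set L1 : E →L[ℝ] G' := (B.flip a').comp L + (B a).comp L' with hL1
  set Q1 : E →L[ℝ] E →L[ℝ] G' := (ContinuousLinearMap.compL ℝ E G G' (B.flip a')).comp Q +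
    (ContinuousLinearMap.compL ℝ E H G' (B a)).comp Q' + (B.bilinearComp L L') with hQ1
  have eL : ∀ z, L1 z = B (L z) a' + B a (L' z) := fun z => rfl
  have eQ : ∀ z w, Q1 z w = B (Q z w) a' + B a (Q' z w) + B (L z) (L' w) := fun z w => rfl
  have bB : ∀ {x : G} {y : H} {p q : ℝ}, ‖x‖ ≤ p → ‖y‖ ≤ q → ‖B x y‖ ≤ ‖B‖ * p * q := by
    intro x y p q hx hy
    refine (B.le_opNorm₂ x y).trans ?_
    have := mul_le_mul_of_nonneg_left hx hB
    exact mul_le_mul this hy (norm_nonneg _) (mul_nonneg hB ((norm_nonneg x).trans hx))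
  have nL : ∀ z, ‖L z‖ ≤ C * ‖z‖ := fun z =>
    (L.le_opNorm z).trans (mul_le_mul_of_nonneg_right hL (norm_nonneg _))
  have nL' : ∀ z, ‖L' z‖ ≤ K * ‖z‖ := fun z =>
    (L'.le_opNorm z).trans (mul_le_mul_of_nonneg_right hL' (norm_nonneg _))
  have nQ : ∀ z w, ‖Q z w‖ ≤ C * ‖z‖ * ‖w‖ := fun z w =>
    (Q.le_opNorm₂ z w).trans (mul_le_mul_of_nonneg_right
      (mul_le_mul_of_nonneg_right hQ (norm_nonneg _)) (norm_nonneg _))
  have nQ' : ∀ z w, ‖Q' z w‖ ≤ K * ‖z‖ * ‖w‖ := fun z w =>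
    (Q'.le_opNorm₂ z w).trans (mul_le_mul_of_nonneg_right
      (mul_le_mul_of_nonneg_right hQ' (norm_nonneg _)) (norm_nonneg _))
  refine ⟨B a a', L1, Q1, ?_, ?_, ?_, fun z hz => ?_⟩
  · refine (bB ha ha').trans ?_
    nlinarith
  · refine ContinuousLinearMap.opNorm_le_bound _ (by positivity) fun z => ?_
    rw [eL]
    refine (norm_add_le _ _).trans ?_
    have h1 := bB (nL z) ha'
    have h2 := bB ha (nL' z)
    have h3 : 0 ≤ ‖B‖ * C * K * ‖z‖ := mul_nonneg hBCK (norm_nonneg _)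
    nlinarith
  · refine ContinuousLinearMap.opNorm_le_bound₂ _ (by positivity) fun z w => ?_
    rw [eQ]
    refine norm_add₃_le.trans ?_
    have h1 := bB (nQ z w) ha'
    have h2 := bB ha (nQ' z w)
    have h3 := bB (nL z) (nL' w)
    have h4 : 0 ≤ ‖B‖ * C * K * ‖z‖ * ‖w‖ :=
      mul_nonneg (mul_nonneg hBCK (norm_nonneg _)) (norm_nonneg _)
    nlinarith
  · have hz1 := norm_lt_one hR hz
    have h0 := norm_nonneg z
    have e1 : B (f z) (g z) - (B a a' + L1 z + Q1 z z) =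
        B (f z - (a + L z + Q z z)) (g z) + B (a + L z + Q z z) (g z - (a' + L' z + Q' z z)) +
        (B (L z) (Q' z z) + B (Q z z) (L' z) + B (Q z z) (Q' z z)) := by
      rw [eL, eQ]
      simp only [map_sub, map_add, _root_.sub_apply, _root_.add_apply]
      abel
    have hz2 : ‖z‖ ^ 3 ≤ ‖z‖ ^ s := pow_le_rpow h0 hz1 (by linarith) (by push_cast; exact hs3)
    have hz3 : ‖z‖ ^ 4 ≤ ‖z‖ ^ 3 := pow_le_pow_of_le_one h0 hz1 (by norm_num)
    have hj : ‖a + L z + Q z z‖ ≤ 3 * C := by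
      refine norm_add₃_le.trans ?_
      have h1 := nL z
      have h2 := nQ z z
      have h9 : C * ‖z‖ ≤ C * 1 := mul_le_mul_of_nonneg_left hz1 hC
      have h10 : C * ‖z‖ * ‖z‖ ≤ C * 1 * 1 := mul_le_mul h9 hz1 h0 (by linarith)
      linarith
    have t1 := bB (hr z hz) (hgn hz)
    have t2 := bB hj (hr' z hz)
    have t3 := bB (nL z) (nQ' z z)
    have t4 := bB (nQ z z) (nL' z)
    have t5 := bB (nQ z z) (nQ' z z)
    have e3 : ‖B‖ * (C * ‖z‖) * (K * ‖z‖ * ‖z‖) = ‖B‖ * C * K * ‖z‖ ^ 3 := by ring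
    have e4 : ‖B‖ * (C * ‖z‖ * ‖z‖) * (K * ‖z‖) = ‖B‖ * C * K * ‖z‖ ^ 3 := by ring
    have e5 : ‖B‖ * (C * ‖z‖ * ‖z‖) * (K * ‖z‖ * ‖z‖) = ‖B‖ * C * K * ‖z‖ ^ 4 := by ring
    have u3 := mul_le_mul_of_nonneg_left hz2 hBCK
    have u4 := mul_le_mul_of_nonneg_left hz3 hBCK
    rw [e3] at t3
    rw [e4] at t4
    rw [e5] at t5
    rw [e1]
    refine norm_add₃_le.trans ?_
    have t6 : ‖B (L z) (Q' z z) + B (Q z z) (L' z) + B (Q z z) (Q' z z)‖ ≤ _ := norm_add₃_le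
    have e6 : ‖B‖ * (C * ‖z‖ ^ s) * (4 * K) = 4 * (‖B‖ * C * K * ‖z‖ ^ s) := by ring
    have e7 : ‖B‖ * (3 * C) * (K * ‖z‖ ^ s) = 3 * (‖B‖ * C * K * ‖z‖ ^ s) := by ring
    have e8 : 10 * ‖B‖ * C * K * ‖z‖ ^ s = 10 * (‖B‖ * C * K * ‖z‖ ^ s) := by ring
    rw [e6] at t1
    rw [e7] at t2
    rw [e8]
    linarith

/-- composition of operators -/
theorem HasJet.comp_op {f : E → H →L[ℝ] G'} {g : E → G →L[ℝ] H} (hf : HasJet R s C f)
    (hg : HasJet R s K g) : HasJet R s (10 * C * K) (fun z => (f z).comp (g z)) := by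
  have hC := hf.nonneg
  have hK := hg.nonneg
  have h := HasJet.bilin hR hs2 hs3 (ContinuousLinearMap.compL ℝ G H G') hf hg
  refine (h.mono ?_).congr fun z _ => rfl
  have h1 := ContinuousLinearMap.norm_compL_le ℝ G H G'
  have h2 : 10 * ‖ContinuousLinearMap.compL ℝ G H G'‖ ≤ 10 * 1 := by linarith
  have h3 := mul_le_mul_of_nonneg_right (mul_le_mul_of_nonneg_right h2 hC) hK
  linarith

/-- operator applied to a vector -/
theorem HasJet.app {f : E → G →L[ℝ] G'} {g : E → G} (hf : HasJet R s C f)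
    (hg : HasJet R s K g) : HasJet R s (10 * C * K) (fun z => f z (g z)) := by
  have hC := hf.nonneg
  have hK := hg.nonneg
  have h := HasJet.bilin hR hs2 hs3 (ContinuousLinearMap.id ℝ (G →L[ℝ] G')) hf hg
  refine (h.mono ?_).congr fun z _ => rfl
  have h1 : ‖ContinuousLinearMap.id ℝ (G →L[ℝ] G')‖ ≤ 1 := ContinuousLinearMap.norm_id_le
  have h2 : 10 * ‖ContinuousLinearMap.id ℝ (G →L[ℝ] G')‖ ≤ 10 * 1 := by linarith
  have h3 := mul_le_mul_of_nonneg_right (mul_le_mul_of_nonneg_right h2 hC) hK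
  linarith

/-- the inverse operator -/
theorem HasJet.inverse {f : E → G →L[ℝ] G} (hf : HasJet R s C f) (hR0 : 0 < R)
    (hu : ∀ z ∈ ball (0 : E) R, IsUnit (f z))
    (hK : ∀ z ∈ ball (0 : E) R, ‖Ring.inverse (f z)‖ ≤ K) :
    HasJet R s (K + 200 * K ^ 2 * C + 40000 * K ^ 3 * C ^ 2 + 27 * K ^ 4 * C ^ 3)
      (fun z => Ring.inverse (f z)) := by
  have hC := hf.nonneg
  have h0R : (0 : E) ∈ ball (0 : E) R := mem_ball_self hR0
  have hK0 : 0 ≤ K := (norm_nonneg _).trans (hK 0 h0R)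
  obtain ⟨L, Q, ha, -⟩ := HasJet.zero_eq hs2 hf hR0
  set A : G →L[ℝ] G := Ring.inverse (f 0) with hA
  have hAK : ‖A‖ ≤ K := hK 0 h0R
  have hX : HasJet R s (2 * C) (fun z => f z - f 0) :=
    (hf.sub (hasJet_const (f 0))).mono (by linarith)
  have hcA : HasJet R s K (fun _ : E => A) := (hasJet_const A).mono hAK
  have hAX : HasJet R s (20 * K * C) (fun z => A.comp (f z - f 0)) :=
    (HasJet.comp_op hR hs2 hs3 hcA hX).mono (by linarith)
  have hXA : HasJet R s (20 * K * C) (fun z => (f z - f 0).comp A) :=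
    (HasJet.comp_op hR hs2 hs3 hX hcA).mono (by linarith)
  have hAXA : HasJet R s (200 * K ^ 2 * C) (fun z => (A.comp (f z - f 0)).comp A) :=
    (HasJet.comp_op hR hs2 hs3 hAX hcA).mono (by nlinarith)
  have hAXAXA : HasJet R s (40000 * K ^ 3 * C ^ 2)
      (fun z => ((A.comp (f z - f 0)).comp A).comp ((f z - f 0).comp A)) :=
    (HasJet.comp_op hR hs2 hs3 hAXA hXA).mono (le_of_eq (by ring))
  have hsum := (hcA.sub hAXA).add hAXAXA
  refine hsum.of_err (by positivity) fun z hz => ?_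
  set X : G →L[ℝ] G := f z - f 0 with hXz
  set Fi : G →L[ℝ] G := Ring.inverse (f z) with hFi
  have e2 : A * X * Fi = A - Fi := by
    rw [hXz, mul_sub, sub_mul, mul_assoc A (f z) Fi, hFi, Ring.mul_inverse_cancel _ (hu z hz),
      mul_one, hA, Ring.inverse_mul_cancel _ (hu 0 h0R), one_mul]
  have e3 : Fi - (A - A * X * A + A * X * A * (X * A)) = -(A * X * (A * X * (A * X * Fi))) :=
    inv_expand e2
  have e4 : (A - (A.comp X).comp A + ((A.comp X).comp A).comp (X.comp A)) =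
      A - A * X * A + A * X * A * (X * A) := rfl
  have hXn : ‖X‖ ≤ 3 * C * ‖z‖ := HasJet.sub_zero_le hR hs2 hf hz
  have hFK : ‖Fi‖ ≤ K := hK z hz
  have n0 := norm_nonneg z
  have step : ∀ {T : G →L[ℝ] G} {q : ℝ}, ‖T‖ ≤ q → ‖A * X * T‖ ≤ K * (3 * C * ‖z‖) * q := by
    intro T q hT
    refine (norm_mul_le _ _).trans ?_
    have h1 : ‖A * X‖ ≤ K * (3 * C * ‖z‖) :=
      (norm_mul_le _ _).trans (mul_le_mul hAK hXn (norm_nonneg _) hK0)
    exact mul_le_mul h1 hT (norm_nonneg _) (by positivity)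
  rw [e4, e3, norm_neg]
  refine (step (step (step hFK))).trans ?_
  have hz1 := norm_lt_one hR hz
  have hz2 : ‖z‖ ^ 3 ≤ ‖z‖ ^ s := pow_le_rpow n0 hz1 (by linarith) (by push_cast; exact hs3)
  have h5 : K * (3 * C * ‖z‖) * (K * (3 * C * ‖z‖) * (K * (3 * C * ‖z‖) * K)) =
      27 * K ^ 4 * C ^ 3 * ‖z‖ ^ 3 := by ring
  rw [h5]
  exact mul_le_mul_of_nonneg_left hz2 (by positivity)

/-- the quadratic term `Q₀ (y, y)` for `y = P z + O(‖z‖ ^ (s - 1))` -/
theorem hasJet_quad_of {Q0 : H →L[ℝ] H →L[ℝ] G} {P : E →L[ℝ] H} {y : E → H} (hQ : ‖Q0‖ ≤ C)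
    (hP : ‖P‖ ≤ C) (hy : ∀ z ∈ ball (0 : E) R, ‖y z - P z‖ ≤ C * ‖z‖ ^ (s - 1)) :
    HasJet R s (4 * C ^ 3) (fun z => Q0 (y z) (y z)) := by
  have hC : 0 ≤ C := (norm_nonneg _).trans hQ
  have hB : HasJet R s (C ^ 3) (fun z : E => (Q0.bilinearComp P P) z z) := by
    refine (hasJet_quad _).mono ?_
    refine ContinuousLinearMap.opNorm_le_bound₂ _ (by positivity) fun z w => ?_
    rw [ContinuousLinearMap.bilinearComp_apply]
    have h1 : ‖P z‖ ≤ C * ‖z‖ := (P.le_opNorm z).trans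
      (mul_le_mul_of_nonneg_right hP (norm_nonneg _))
    have h2 : ‖P w‖ ≤ C * ‖w‖ := (P.le_opNorm w).trans
      (mul_le_mul_of_nonneg_right hP (norm_nonneg _))
    calc ‖Q0 (P z) (P w)‖ ≤ ‖Q0‖ * ‖P z‖ * ‖P w‖ := Q0.le_opNorm₂ _ _
      _ ≤ C * (C * ‖z‖) * (C * ‖w‖) := by gcongr
      _ = C ^ 3 * ‖z‖ * ‖w‖ := by ring
  refine (hB.of_err (K := 3 * C ^ 3) (by positivity) fun z hz => ?_).mono (by linarith)
  have hz1 := norm_lt_one hR hz
  have n0 := norm_nonneg z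
  have h1 : ‖P z‖ ≤ C * ‖z‖ := (P.le_opNorm z).trans
      (mul_le_mul_of_nonneg_right hP (norm_nonneg _))
  have h2 := hy z hz
  have h3 : ‖z‖ ^ (s - 1) ≤ ‖z‖ := by
    rcases n0.eq_or_lt with h | h
    · rw [← h, Real.zero_rpow (by linarith)]
    · have := Real.rpow_le_rpow_of_exponent_ge h hz1 (show (1 : ℝ) ≤ s - 1 by linarith)
      rwa [Real.rpow_one] at this
  have h4 : ‖y z‖ ≤ 2 * C * ‖z‖ := by
    have h5 : ‖y z‖ ≤ ‖y z - P z‖ + ‖P z‖ := by simpa using norm_add_le (y z - P z) (P z)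
    have h6 := mul_le_mul_of_nonneg_left h3 hC
    linarith
  have e1 : Q0 (y z) (y z) - (Q0.bilinearComp P P) z z =
      Q0 (y z - P z) (y z) + Q0 (P z) (y z - P z) := by
    rw [ContinuousLinearMap.bilinearComp_apply]
    simp only [map_sub, _root_.sub_apply]
    abel
  have e2 : ‖z‖ ^ s = ‖z‖ ^ (s - 1) * ‖z‖ := by
    have h7 := Real.rpow_add_one' n0 (y := s - 1) (by linarith)
    rw [← h7]
    congr 1
    ring
  have n1 : 0 ≤ ‖z‖ ^ (s - 1) := Real.rpow_nonneg n0 _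
  rw [e1]
  refine (norm_add_le _ _).trans ?_
  have h8 : ‖Q0 (y z - P z) (y z)‖ ≤ C * (C * ‖z‖ ^ (s - 1)) * (2 * C * ‖z‖) :=
    (Q0.le_opNorm₂ _ _).trans (by gcongr)
  have h9 : ‖Q0 (P z) (y z - P z)‖ ≤ C * (C * ‖z‖) * (C * ‖z‖ ^ (s - 1)) :=
    (Q0.le_opNorm₂ _ _).trans (by gcongr)
  have e3 : C * (C * ‖z‖ ^ (s - 1)) * (2 * C * ‖z‖) = 2 * C ^ 3 * (‖z‖ ^ (s - 1) * ‖z‖) := by ring
  have e4 : C * (C * ‖z‖) * (C * ‖z‖ ^ (s - 1)) = C ^ 3 * (‖z‖ ^ (s - 1) * ‖z‖) := by ring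
  rw [e3] at h8
  rw [e4] at h9
  rw [e2]
  linarith

/-- the linear part -/
theorem HasJet.lin (hf : HasJet R s C f) (h0 : f 0 = 0) : ∃ P : E →L[ℝ] G, ‖P‖ ≤ C ∧
    ∀ z ∈ ball (0 : E) R, ‖f z - P z‖ ≤ 2 * C * ‖z‖ ^ (s - 1) := by
  have hC := hf.nonneg
  rcases le_or_gt R 0 with hR0 | hR0
  · exact ⟨0, by simpa using hC, fun z hz => by
      rw [ball_eq_empty.2 hR0] at hz
      exact absurd hz (notMem_empty z)⟩
  obtain ⟨L, Q, -, hL, hQ, hr⟩ := HasJet.zero_eq hs2 hf hR0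
  refine ⟨L, hL, fun z hz => ?_⟩
  have hz1 := norm_lt_one hR hz
  have n0 := norm_nonneg z
  have h1 := hr z hz
  rw [h0, zero_add] at h1
  have h2 : ‖Q z z‖ ≤ C * ‖z‖ ^ 2 := by
    have h3 := (Q.le_opNorm₂ z z).trans
      (mul_le_mul_of_nonneg_right (mul_le_mul_of_nonneg_right hQ n0) n0)
    calc _ ≤ _ := h3
      _ = _ := by ring
  have h4 : ‖z‖ ^ 2 ≤ ‖z‖ ^ (s - 1) :=
    pow_le_rpow n0 hz1 (by linarith) (by push_cast; linarith)
  have h5 : ‖z‖ ^ s ≤ ‖z‖ ^ 2 := rpow_le_norm hs2 n0 hz1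
  have h6 : f z - L z = (f z - (L z + Q z z)) + Q z z := by abel
  rw [h6]
  refine (norm_add_le _ _).trans ?_
  have h7 := mul_le_mul_of_nonneg_left h4 hC
  have h8 := mul_le_mul_of_nonneg_left (h5.trans h4) hC
  linarith

/-- the quadratic term `Q₀ (y, y)` for `y = p + O(‖z‖ ^ (s - 1))`, `p` a jet with `p 0 = 0` -/
theorem hasJet_quad_near {Q0 : G →L[ℝ] G →L[ℝ] G'} {p y : E → G} (hQ : ‖Q0‖ ≤ K)
    (hp : HasJet R s K p) (hp0 : p 0 = 0)
    (hy : ∀ z ∈ ball (0 : E) R, ‖y z - p z‖ ≤ K * ‖z‖ ^ (s - 1)) :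
    HasJet R s (4 * (3 * K) ^ 3) (fun z => Q0 (y z) (y z)) := by
  have hK := hp.nonneg
  obtain ⟨P, hP, hr⟩ := HasJet.lin hR hs2 hs3 hp hp0
  refine hasJet_quad_of hR hs2 hs3 (P := P) (by linarith) (by linarith) fun z hz => ?_
  have h1 : y z - P z = (y z - p z) + (p z - P z) := by abel
  rw [h1]
  refine (norm_add_le _ _).trans ?_
  have h2 := hy z hz
  have h3 := hr z hz
  linarith

/-- composition with an inner map which fixes the origin -/
theorem HasJet.comp_map {E' : Type*} [NormedAddCommGroup E'] [NormedSpace ℝ E'] {R' : ℝ}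
    {κ : E' → E} (hf : HasJet R s C f) (hκ : HasJet R' s K κ) (hR' : R' ≤ 1) (h0 : κ 0 = 0)
    (hm : ∀ z ∈ ball (0 : E') R', κ z ∈ ball (0 : E) R) :
    HasJet R' s (C + C * K + 10 * C * K * K + C * (3 * K) ^ s) (fun z => f (κ z)) := by
  have hC := hf.nonneg
  have hK := hκ.nonneg
  obtain ⟨a, L, Q, ha, hL, hQ, hr⟩ := hf
  have h1 : HasJet R' s C (fun _ : E' => a) := (hasJet_const a).mono ha
  have h2 : HasJet R' s (C * K) (fun z => L (κ z)) :=
    (hκ.clm L).mono (mul_le_mul_of_nonneg_right hL hK)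
  have h3 : HasJet R' s (10 * C * K * K) (fun z => Q (κ z) (κ z)) := by
    refine (HasJet.bilin hR' hs2 hs3 Q hκ hκ).mono ?_
    gcongr
  refine ((h1.add h2).add h3).of_err (mul_nonneg hC (Real.rpow_nonneg (by positivity) _))
    fun z hz => ?_
  have h4 := HasJet.sub_zero_le hR' hs2 hκ hz
  rw [h0, sub_zero] at h4
  have h5 := hr (κ z) (hm z hz)
  refine h5.trans ?_
  rw [mul_assoc]
  refine mul_le_mul_of_nonneg_left ?_ hC
  rw [← Real.mul_rpow (by positivity) (norm_nonneg z)]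
  exact Real.rpow_le_rpow (norm_nonneg _) h4 (by linarith)

omit hs2 in
/-- a map with bounded third derivative -/
theorem hasJet_of_contDiff {M : ℝ} (hs0 : 0 < s) (hR0 : 0 < R)
    (hf : ContDiffOn ℝ 3 f (ball 0 R))
    (hM : ∀ k ≤ 3, ∀ z ∈ ball (0 : E) R, ‖iteratedFDeriv ℝ k f z‖ ≤ M) : HasJet R s M f := by
  have h0R : (0 : E) ∈ ball (0 : E) R := mem_ball_self hR0
  have ho : IsOpen (ball (0 : E) R) := isOpen_ball
  have hf1 : ContDiffOn ℝ 2 (fderiv ℝ f) (ball 0 R) := hf.fderiv_of_isOpen ho (by norm_num)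
  have hf2 : ContDiffOn ℝ 1 (fderiv ℝ (fderiv ℝ f)) (ball 0 R) :=
    hf1.fderiv_of_isOpen ho (by norm_num)
  have n0 : ∀ z ∈ ball (0 : E) R, ‖f z‖ ≤ M := fun z hz => by
    have := hM 0 (by norm_num) z hz
    rwa [norm_iteratedFDeriv_zero] at this
  have n1 : ∀ z ∈ ball (0 : E) R, ‖fderiv ℝ f z‖ ≤ M := fun z hz => by
    have := hM 1 (by norm_num) z hz
    rwa [← norm_iteratedFDeriv_fderiv, norm_iteratedFDeriv_zero] at this
  have n2 : ∀ z ∈ ball (0 : E) R, ‖fderiv ℝ (fderiv ℝ f) z‖ ≤ M := fun z hz => by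
    have := hM 2 (by norm_num) z hz
    rwa [← norm_iteratedFDeriv_fderiv, ← norm_iteratedFDeriv_fderiv,
      norm_iteratedFDeriv_zero] at this
  have n3 : ∀ z ∈ ball (0 : E) R, ‖fderiv ℝ (fderiv ℝ (fderiv ℝ f)) z‖ ≤ M := fun z hz => by
    have := hM 3 le_rfl z hz
    rwa [← norm_iteratedFDeriv_fderiv, ← norm_iteratedFDeriv_fderiv,
      ← norm_iteratedFDeriv_fderiv, norm_iteratedFDeriv_zero] at this
  have hM0 : 0 ≤ M := (norm_nonneg _).trans (n0 0 h0R)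
  have d0 : ∀ z ∈ ball (0 : E) R, DifferentiableAt ℝ f z := fun z hz =>
    (hf.contDiffAt (ho.mem_nhds hz)).differentiableAt (by norm_num)
  have d1 : ∀ z ∈ ball (0 : E) R, DifferentiableAt ℝ (fderiv ℝ f) z := fun z hz =>
    (hf1.contDiffAt (ho.mem_nhds hz)).differentiableAt (by norm_num)
  have d2 : ∀ z ∈ ball (0 : E) R, DifferentiableAt ℝ (fderiv ℝ (fderiv ℝ f)) z := fun z hz =>
    (hf2.contDiffAt (ho.mem_nhds hz)).differentiableAt (by norm_num)
  have hconv : Convex ℝ (ball (0 : E) R) := convex_ball 0 R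
  -- first order expansion of the derivative
  have key : ∀ z ∈ ball (0 : E) R,
      ‖fderiv ℝ f z - fderiv ℝ f 0 - fderiv ℝ (fderiv ℝ f) 0 z‖ ≤ M * ‖z‖ ^ 2 := by
    intro z hz
    have h1 : ∀ w ∈ segment ℝ (0 : E) z,
        ‖fderiv ℝ (fderiv ℝ f) w - fderiv ℝ (fderiv ℝ f) 0‖ ≤ M * ‖z‖ := by
      intro w hw
      have hwb : w ∈ ball (0 : E) R := hconv.segment_subset h0R hz hw
      have h2 := hconv.norm_image_sub_le_of_norm_fderiv_le (𝕜 := ℝ) d2 n3 h0R hwb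
      refine h2.trans (mul_le_mul_of_nonneg_left ?_ hM0)
      rw [sub_zero]
      rw [segment_eq_image'] at hw
      obtain ⟨t, ht, rfl⟩ := hw
      simp only [sub_zero, zero_add]
      rw [norm_smul, Real.norm_eq_abs, abs_of_nonneg ht.1]
      exact mul_le_of_le_one_left (norm_nonneg _) ht.2
    have h3 := (convex_segment (0 : E) z).norm_image_sub_le_of_norm_fderiv_le' (𝕜 := ℝ)
      (fun w hw => d1 w (hconv.segment_subset h0R hz hw)) h1 (left_mem_segment ℝ _ _)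
      (right_mem_segment ℝ _ _)
    rw [sub_zero] at h3
    calc _ ≤ M * ‖z‖ * ‖z‖ := h3
      _ = _ := by ring
  have hsymm : ∀ v w, fderiv ℝ (fderiv ℝ f) 0 v w = fderiv ℝ (fderiv ℝ f) 0 w v := by
    have h1 : ContDiffAt ℝ 3 f 0 := hf.contDiffAt (ho.mem_nhds h0R)
    have h2 : IsSymmSndFDerivAt ℝ f 0 := h1.isSymmSndFDerivAt (by
      rw [minSmoothness_of_isRCLikeNormedField]; norm_num)
    exact fun v w => h2 v w
  set B : E →L[ℝ] E →L[ℝ] G := fderiv ℝ (fderiv ℝ f) 0 with hB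
  refine ⟨f 0, fderiv ℝ f 0, (1 / 2 : ℝ) • B, n0 0 h0R, n1 0 h0R, ?_, fun z hz => ?_⟩
  · rw [norm_smul]
    have := n2 0 h0R
    rw [show ‖(1 / 2 : ℝ)‖ = 1 / 2 by norm_num]
    rw [← hB] at this
    have h5 := norm_nonneg B
    linarith
  · set r : E → G := fun w => f w - (f 0 + fderiv ℝ f 0 w + ((1 / 2 : ℝ) • B) w w) with hr
    have hd : ∀ w ∈ ball (0 : E) R, HasFDerivAt r (fderiv ℝ f w - fderiv ℝ f 0 - B w) w := by
      intro w hw
      have h1 : HasFDerivAt (fun w : E => ((1 / 2 : ℝ) • B) w w)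
          (((1 / 2 : ℝ) • B) w + (((1 / 2 : ℝ) • B).flip w)) w := by
        have h2 := ((((1 / 2 : ℝ) • B)).hasFDerivAt (x := w)).clm_apply (hasFDerivAt_id w)
        refine h2.congr_fderiv ?_
        ext v
        simp
      have h3 := ((d0 w hw).hasFDerivAt).sub
        (((hasFDerivAt_const (f 0) w).add (fderiv ℝ f 0).hasFDerivAt).add h1)
      refine h3.congr_fderiv ?_
      ext v
      have h4 := hsymm v w
      simp only [_root_.sub_apply, _root_.add_apply, ContinuousLinearMap.flip_apply,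
        _root_.smul_apply, zero_add]
      rw [h4]
      have h5 : (1 / 2 : ℝ) • B w v + (1 / 2 : ℝ) • B w v = B w v := by
        rw [← add_smul]; norm_num
      rw [h5]
      abel
    have h6 : ∀ w ∈ segment ℝ (0 : E) z, ‖fderiv ℝ r w‖ ≤ M * ‖z‖ ^ 2 := by
      intro w hw
      have hwb : w ∈ ball (0 : E) R := hconv.segment_subset h0R hz hw
      rw [(hd w hwb).fderiv]
      refine (key w hwb).trans (mul_le_mul_of_nonneg_left ?_ hM0)
      refine pow_le_pow_left₀ (norm_nonneg _) ?_ 2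
      rw [segment_eq_image'] at hw
      obtain ⟨t, ht, rfl⟩ := hw
      simp only [sub_zero, zero_add]
      rw [norm_smul, Real.norm_eq_abs, abs_of_nonneg ht.1]
      exact mul_le_of_le_one_left (norm_nonneg _) ht.2
    have h7 := (convex_segment (0 : E) z).norm_image_sub_le_of_norm_fderiv_le (𝕜 := ℝ)
      (fun w hw => (hd w (hconv.segment_subset h0R hz hw)).differentiableAt) h6
      (left_mem_segment ℝ _ _) (right_mem_segment ℝ _ _)
    have h8 : r 0 = 0 := by simp [hr]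
    rw [h8, sub_zero, sub_zero] at h7
    have hz1 := norm_lt_one hR hz
    have hz2 : ‖z‖ ^ 3 ≤ ‖z‖ ^ s :=
      pow_le_rpow (norm_nonneg z) hz1 hs0 (by push_cast; exact hs3)
    calc ‖f z - (f 0 + fderiv ℝ f 0 z + ((1 / 2 : ℝ) • B) z z)‖ = ‖r z‖ := rfl
      _ ≤ M * ‖z‖ ^ 2 * ‖z‖ := h7
      _ = M * ‖z‖ ^ 3 := by ring
      _ ≤ M * ‖z‖ ^ s := mul_le_mul_of_nonneg_left hz2 hM0

end

end Vale.Agent.P207.H558
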