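import Vale.Agent.P207.H281.Tools
import Vale.Agent.P207.H558.Jet

/-!
# P207, all dimensions, step 7: smooth functions with bounds have uniform 2-jets
-/

open Set Filter Topology Metric
open scoped ContDiff RealInnerProductSpace

set_option maxSynthPendingDepth 3

noncomputable section

namespace Vale.Agent.P207.H558

open Vale.Agent.P207.H281

variable {E G : Type*} [NormedAddCommGroup E] [NormedSpace ℝ E] [NormedAddCommGroup G]
  [NormedSpace ℝ G]

theorem hasJet_of_smB {R s : ℝ} {M : ℕ → ℝ} {f : E → G} (hR : R ≤ 1) (hs0 : 0 < s) (hs3 : s ≤ 3)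
    (hR0 : 0 < R) (hf : SmB M R f) : HasJet R s (M 0 + M 1 + M 2 + M 3) f := by
  have h0 := hf.M_nonneg hR0 0
  have h1 := hf.M_nonneg hR0 1
  have h2 := hf.M_nonneg hR0 2
  have h3 := hf.M_nonneg hR0 3
  have h33 : ((3 : ℕ∞) : WithTop ℕ∞) ≤ ∞ := by exact_mod_cast le_top
  refine hasJet_of_contDiff hR hs3 hs0 hR0 (hf.1.of_le h33) ?_
  intro k hk z hz
  have h := hf.2 k z hz
  interval_cases k <;> linarith

end Vale.Agent.P207.H558
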